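import Vale.Agent.P045.Final

namespace Vale.Agent.Results.P045.A_full

open Vale.Agent.P045

theorem result :
    (¬∀ r : ℕ, 2 ≤ r → ∀ (V : Type) [Fintype V] (part : V → Fin r) (H : Finset (Finset V)),
      IsPartite part H → tau H ≤ (r - 1) * nu H) ∧
    ∃ n0 : ℕ, ∀ n ≥ n0, Odd n → ∃ (V : Type) (_ : Fintype V) (part : V → Fin (8 ^ n + 1))
      (H : Finset (Finset V)), IsPartite part H ∧ nu H = 1 ∧ tau H = 8 ^ n + 1 := by
  refine ⟨fun h => ?_, family⟩
  obtain ⟨n0, h0⟩ := family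
  obtain ⟨V, _, part, H, h1, h2, h3⟩ := h0 (2 * n0 + 1) (by omega) (odd_two_mul_add_one n0)
  have h4 := h _ (Nat.succ_le_succ (Nat.one_le_pow _ 8 (by norm_num))) V part H h1
  rw [h2, h3, mul_one, Nat.succ_sub_one] at h4
  exact Nat.not_succ_le_self _ h4

end Vale.Agent.Results.P045.A_full
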